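import Mathlib

/-! Definitions for torus packets of orders in totally real fields of degree `n = m + 1`.
Lattices are written as column lattices `g ℤ^n` and groups act on the left; transposing gives the
row vector convention. -/

namespace Vale.Agent.P007

open MeasureTheory

variable {m : ℕ}

/-- The group `SL_n(ℝ)`, `n = m + 1`. -/
abbrev G (m : ℕ) := Matrix.SpecialLinearGroup (Fin (m + 1)) ℝ

/-- The subgroup `SL_n(ℤ)`. -/
def Gam (m : ℕ) : Subgroup (G m) := (Matrix.SpecialLinearGroup.map (Int.castRingHom ℝ)).range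

/-- The space of lattices of covolume one in `ℝ^n`: the class of `g` is the lattice `g ℤ^n`. -/
def X (m : ℕ) := G m ⧸ Gam m

/-- The class of `g`. -/
def cls (g : G m) : X m := QuotientGroup.mk g

/-- The quotient topology. -/
instance : TopologicalSpace (X m) := TopologicalSpace.coinduced cls inferInstance

/-- The Borel sigma-algebra. -/
instance : MeasurableSpace (X m) := borel (X m)

/-- `SL_n(ℝ)` acts by `act h (g ℤ^n) = (h g) ℤ^n`. -/
def act (h : G m) (x : X m) : X m := (fun y : G m ⧸ Gam m => h • y) x

/-- `x` is the lattice `L`. -/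
def IsLattice (x : X m) (L : Set (Fin (m + 1) → ℝ)) : Prop :=
  ∃ g : G m, cls g = x ∧ L = Set.range fun z : Fin (m + 1) → ℤ => g.1.mulVec fun i => (z i : ℝ)

/-- The exponents `(u_1, …, u_{n-1}, -(u_1 + … + u_{n-1}))`. -/
noncomputable def ext (u : Fin m → ℝ) : Fin (m + 1) → ℝ := Fin.snoc (α := fun _ => ℝ) u (-∑ i, u i)

/-- The matrix `diag(e^{u_1}, …, e^{u_{n-1}}, e^{-(u_1 + … + u_{n-1})})`. -/
noncomputable def tor (u : Fin m → ℝ) : G m :=
  ⟨Matrix.diagonal fun j => Real.exp (ext u j), by
    rw [Matrix.det_diagonal, ← Real.exp_sum, Fin.sum_univ_castSucc]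
    simp [ext]⟩

/-- The orbit of `x` under the diagonal group. -/
def orb (x : X m) : Set (X m) := Set.range fun u : Fin m → ℝ => act (tor u) x

/-- `D` is a strict fundamental domain, in the coordinates `u`, for the stabilizer of `x` in the
diagonal group: every `v` differs from exactly one element of `D` by a stabilizer element. -/
def IsDomain (x : X m) (D : Set (Fin m → ℝ)) : Prop :=
  MeasurableSet D ∧ ∀ v, ∃! u, act (tor u) x = x ∧ v - u ∈ D

open Classical in
/-- `vol(O) ν_O` for the orbit `O` of `x`: the image of Haar measure `du_1 ⋯ du_{n-1}` restricted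
to a fundamental domain of the stabilizer. -/
noncomputable def orbMeasure (x : X m) : Measure (X m) :=
  if h : ∃ D, IsDomain x D then (volume.restrict h.choose).map fun u => act (tor u) x else 0

open Classical in
/-- The same measure attached to an orbit given as a set. -/
noncomputable def setMeasure (P : Set (X m)) : Measure (X m) :=
  if h : P.Nonempty then orbMeasure h.some else 0

section
variable {K : Type*} [Field K]

/-- `O` is an order of `K`: a full-rank subring of algebraic integers. -/
def IsOrder (O : Subring K) : Prop :=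
  (∀ x ∈ O, IsIntegral ℤ x) ∧ ∀ x : K, ∃ N : ℤ, N ≠ 0 ∧ (N : K) * x ∈ O

/-- `|Disc O| = |Disc K| [O_K : O]^2`. -/
noncomputable def absDisc [NumberField K] (O : Subring K) : ℕ :=
  (NumberField.discr K).natAbs *
    (O.toAddSubgroup.relIndex (integralClosure ℤ K).toSubring.toAddSubgroup) ^ 2

/-- `I` is a proper invertible fractional `O`-ideal. -/
def IsProperInvertible (O : Subring K) (I : Submodule ℤ K) : Prop :=
  (∀ a : K, a ∈ O ↔ ∀ x ∈ I, a * x ∈ I) ∧
    ∃ J : Submodule ℤ K, (∀ a ∈ O, ∀ x ∈ J, a * x ∈ J) ∧ ∀ a : K, a ∈ I * J ↔ a ∈ O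

/-- The packet: the set of distinct orbits of the lattices `Λ_I w`. The factor `c > 0` is the
normalization `covol(σ(I))^{-1/n}` (the only factor making the lattice a point of `X`). -/
def packet (σ : Fin (m + 1) ≃ (K →+* ℝ)) (O : Subring K) : Set (Set (X m)) :=
  {P | ∃ (x : X m) (I : Submodule ℤ K) (w : Fin (m + 1) → ℝ) (c : ℝ),
    IsProperInvertible O I ∧ (∀ j, w j = 1 ∨ w j = -1) ∧ 0 < c ∧
      IsLattice x {v | ∃ a ∈ I, v = fun j => c * σ j a * w j} ∧ P = orb x}

/-- The sum of `vol(O) ν_O` over the orbits `O` of the packet. -/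
noncomputable def packetSum (σ : Fin (m + 1) ≃ (K →+* ℝ)) (O : Subring K) : Measure (X m) :=
  Measure.sum fun P : packet σ O => setMeasure P.1

/-- The packet measure `μ_{O,σ}`. -/
noncomputable def packetMeasure (σ : Fin (m + 1) ≃ (K →+* ℝ)) (O : Subring K) : Measure (X m) :=
  (packetSum σ O Set.univ)⁻¹ • packetSum σ O

end

/-- `μ` is the `SL_n(ℝ)`-invariant probability measure on `X`. -/
def IsInvariantProbability (μ : Measure (X m)) : Prop :=
  μ Set.univ = 1 ∧ ∀ g : G m, μ.map (act g) = μ

/-- Weak convergence tested on continuous functions with compact support. -/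
def ConvergesTo (μs : ℕ → Measure (X m)) (μ : Measure (X m)) : Prop :=
  ∀ f : X m → ℝ, Continuous f → HasCompactSupport f →
    Filter.Tendsto (fun i => ∫ x, f x ∂(μs i)) Filter.atTop (nhds (∫ x, f x ∂μ))

end Vale.Agent.P007
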