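import Mathlib

/-! Totally real fields of composite degree with an intermediate field. -/

namespace Vale.Agent.P007

open Module Set

/-- Elements of order dividing two lie in every subgroup of even order generated by a power of a
generator. -/
lemma invol_mem {A : Type*} [Group A] [Finite A] (g : A) (hg : ∀ x, x ∈ Subgroup.zpowers g) (n c : ℕ)
    (hN : Nat.card A = 2 * n * c) (τ : A) (hτ : τ * τ = 1) :
    τ ∈ Subgroup.zpowers (g ^ n) := by
  obtain ⟨k, rfl⟩ := Subgroup.mem_zpowers_iff.mp (hg τ)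
  have hord : orderOf g = 2 * n * c := by
    rw [← hN]; exact orderOf_eq_card_of_forall_mem_zpowers hg
  have h1 : g ^ (2 * k) = 1 := by rw [two_mul, zpow_add]; exact hτ
  have h2 : ((orderOf g : ℕ) : ℤ) ∣ 2 * k := orderOf_dvd_iff_zpow_eq_one.mpr h1
  rw [hord] at h2
  obtain ⟨l, hl⟩ := h2
  have h3 : k = n * (c * l) := by
    push_cast at hl
    have : 2 * k = 2 * (n * (c * l)) := by rw [hl]; ring
    linarith
  refine Subgroup.mem_zpowers_iff.mpr ⟨c * l, ?_⟩
  rw [h3, ← zpow_natCast g n, ← zpow_mul]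

lemma exists_field_aux (d e c : ℕ) (hd : 2 ≤ d) (he : 2 ≤ e) (hc0 : 0 < c) (L : Type) [Field L]
    [NumberField L] [IsGalois ℚ L] (hcard : Nat.card (L ≃ₐ[ℚ] L) = 2 * (d * e) * c)
    (hcyc : IsCyclic (L ≃ₐ[ℚ] L)) :
    ∃ (K : Type) (_ : Field K) (_ : NumberField K), finrank ℚ K = d * e ∧
      NumberField.IsTotallyReal K ∧ ∃ F : Subfield K, F ≠ ⊤ ∧ ∃ y ∈ F, ∀ q : ℚ, y ≠ (q : K) := by
  set n := d * e with hn
  have hn0 : 0 < n := by positivity
  obtain ⟨g, hg⟩ := hcyc.exists_generator
  have hord : orderOf g = 2 * n * c := by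
    rw [← hcard]; exact orderOf_eq_card_of_forall_mem_zpowers hg
  have hidx : ∀ s : ℕ, s ∣ n → finrank ℚ (IntermediateField.fixedField (Subgroup.zpowers (g ^ s)))
      = s := by
    intro s hs
    have hs0 : 0 < s := Nat.pos_of_dvd_of_pos hs hn0
    have h1 := IntermediateField.finrank_fixedField_eq_card (Subgroup.zpowers (g ^ s))
    have h2 : Nat.card (Subgroup.zpowers (g ^ s)) = 2 * n * c / s := by
      rw [Nat.card_zpowers, orderOf_pow, hord]
      congr 1
      exact Nat.gcd_eq_right ((hs.mul_left 2).mul_right c)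
    have h3 : finrank ℚ L = 2 * n * c := by
      rw [← hcard, IsGalois.card_aut_eq_finrank]
    have h4 := finrank_mul_finrank ℚ (IntermediateField.fixedField (Subgroup.zpowers (g ^ s))) L
    rw [h1, h2, h3] at h4
    have h5 : s * (2 * n * c / s) = 2 * n * c := Nat.mul_div_cancel' ((hs.mul_left 2).mul_right c)
    have h6 : 0 < 2 * n * c / s := Nat.div_pos (Nat.le_of_dvd (by positivity)
      ((hs.mul_left 2).mul_right c)) hs0
    exact Nat.eq_of_mul_eq_mul_right h6 (h4.trans h5.symm)
  set K := IntermediateField.fixedField (Subgroup.zpowers (g ^ n)) with hK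
  set F := IntermediateField.fixedField (Subgroup.zpowers (g ^ d)) with hF
  have hFK : F ≤ K := by
    rw [hF, hK]
    apply IntermediateField.fixedField_antitone
    rw [Subgroup.zpowers_le]
    refine Subgroup.mem_zpowers_iff.mpr ⟨e, ?_⟩
    rw [zpow_natCast, ← pow_mul]
  have hreal : NumberField.IsTotallyReal K := by
    constructor
    intro w
    rw [NumberField.InfinitePlace.isReal_iff, NumberField.ComplexEmbedding.isReal_iff]
    set φ := w.embedding with hφ
    let ψ : L →+* ℂ := NumberField.ComplexEmbedding.lift L φ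
    have hψ : ψ.comp (algebraMap K L) = φ := NumberField.ComplexEmbedding.lift_comp_algebraMap L φ
    obtain ⟨τ, hτ⟩ := NumberField.ComplexEmbedding.exists_comp_symm_eq_of_comp_eq (k := ℚ) ψ
      (NumberField.ComplexEmbedding.conjugate ψ) (Subsingleton.elim _ _)
    have hτ' : ∀ x : L, ψ (τ.symm x) = (starRingEnd ℂ) (ψ x) := fun x => RingHom.congr_fun hτ x
    have hinv : τ.symm * τ.symm = 1 := by
      ext x
      apply ψ.injective
      show ψ (τ.symm (τ.symm x)) = ψ x
      rw [hτ', hτ', Complex.conj_conj]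
    have hmem : τ.symm ∈ Subgroup.zpowers (g ^ n) := invol_mem g hg n c hcard _ hinv
    ext x
    have hx : τ.symm (x : L) = x :=
      (IntermediateField.mem_fixedField_iff _ _).mp x.2 _ hmem
    have h1 : φ x = ψ (x : L) := by rw [← hψ]; rfl
    rw [NumberField.ComplexEmbedding.conjugate_coe_eq, h1, ← hτ', hx]
  have hFd : finrank ℚ F = d := hidx d ⟨e, hn⟩
  have hKn : finrank ℚ K = n := hidx n dvd_rfl
  -- an irrational element of `F`
  have hy : ∃ y ∈ F, ∀ q : ℚ, y ≠ (q : L) := by
    by_contra hcon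
    push Not at hcon
    have : F = ⊥ := by
      rw [eq_bot_iff]
      intro y hy
      obtain ⟨q, hq⟩ := hcon y hy
      rw [IntermediateField.mem_bot]
      exact ⟨q, by rw [hq]; simp⟩
    rw [this, IntermediateField.finrank_bot] at hFd
    omega
  obtain ⟨y, hyF, hyq⟩ := hy
  refine ⟨K, inferInstance, inferInstance, ?_, hreal, F.toSubfield.comap (algebraMap K L), ?_,
    ⟨y, hFK hyF⟩, hyF, ?_⟩
  · convert hKn
  · intro htop
    have hle : K ≤ F := by
      intro x hx
      have : (⟨x, hx⟩ : K) ∈ F.toSubfield.comap (algebraMap K L) := by rw [htop]; trivial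
      exact this
    have : K = F := le_antisymm hle hFK
    rw [this, hFd] at hKn
    rw [hn] at hKn
    nlinarith
  · intro q hq
    have := congrArg (algebraMap K L) hq
    rw [map_ratCast] at this
    exact hyq q this

lemma exists_field (d e : ℕ) (hd : 2 ≤ d) (he : 2 ≤ e) :
    ∃ (K : Type) (_ : Field K) (_ : NumberField K), finrank ℚ K = d * e ∧
      NumberField.IsTotallyReal K ∧ ∃ F : Subfield K, F ≠ ⊤ ∧ ∃ y ∈ F, ∀ q : ℚ, y ≠ (q : K) := by
  obtain ⟨p, hp, hp1, hpm⟩ := Nat.exists_prime_gt_modEq_one (k := 2 * (d * e)) 2 (by positivity)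
  have : Fact p.Prime := ⟨hp⟩
  have : NeZero p := ⟨hp.ne_zero⟩
  have : NeZero ((p : ℕ) : ℚ) := ⟨by exact_mod_cast hp.ne_zero⟩
  have hcyce : IsCyclotomicExtension {p} ℚ (CyclotomicField p ℚ) :=
    CyclotomicField.isCyclotomicExtension p ℚ
  obtain ⟨c, hc⟩ : 2 * (d * e) ∣ p - 1 := (Nat.modEq_iff_dvd' hp.one_lt.le).mp hpm.symm
  have hc0 : 0 < c := by
    rcases Nat.eq_zero_or_pos c with h | h
    · rw [h, mul_zero] at hc; omega
    · exact h
  have hgal : IsGalois ℚ (CyclotomicField p ℚ) := IsCyclotomicExtension.isGalois {p} ℚ _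
  let eq := IsCyclotomicExtension.autEquivPow (CyclotomicField p ℚ)
    (Polynomial.cyclotomic.irreducible_rat (n := p) (NeZero.pos p))
  have hcyc : IsCyclic (CyclotomicField p ℚ ≃ₐ[ℚ] CyclotomicField p ℚ) :=
    isCyclic_of_surjective eq.symm eq.symm.surjective
  have hcard : Nat.card (CyclotomicField p ℚ ≃ₐ[ℚ] CyclotomicField p ℚ) = 2 * (d * e) * c := by
    rw [Nat.card_congr eq.toEquiv, Nat.card_eq_fintype_card, ZMod.card_units_eq_totient,
      Nat.totient_prime hp, hc]
  have halg : (inferInstance : Algebra ℚ (CyclotomicField p ℚ)) = DivisionRing.toRatAlgebra :=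
    Subsingleton.elim _ _
  have hnf : NumberField (CyclotomicField p ℚ) := inferInstance
  exact exists_field_aux d e c hd he hc0 (CyclotomicField p ℚ) (by convert hcard) (by convert hcyc)

end Vale.Agent.P007
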