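import Vale.Agent.P007.Defs

/-! The closed set of lattices stable under a fixed diagonal matrix. -/

namespace Vale.Agent.P007

open MeasureTheory Matrix Topology Set

variable {m : ℕ}

instance : BorelSpace (X m) := ⟨rfl⟩

instance : MulAction (G m) (X m) := inferInstanceAs (MulAction (G m) (G m ⧸ Gam m))

lemma act_eq (h : G m) (x : X m) : act h x = h • x := rfl

instance gam_closed : IsClosed (Gam m : Set (G m)) := by
  have h : IsClosedEmbedding (Int.castRingHom ℝ) := Int.isClosedEmbedding_coe_real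
  have := (h.specialLinearGroup_map (n := Fin (m + 1))).isClosed_range
  simpa [Gam] using this

instance : T2Space (X m) := inferInstanceAs (T2Space (G m ⧸ Gam m))

instance : LocallyCompactSpace (G m) := by
  have h : IsClosedEmbedding ((↑) : G m → Matrix (Fin (m+1)) (Fin (m+1)) ℝ) :=
    SpecialLinearGroup.isClosedEmbedding_val
  have : LocallyCompactSpace (Matrix (Fin (m+1)) (Fin (m+1)) ℝ) :=
    inferInstanceAs (LocallyCompactSpace (Fin (m+1) → Fin (m+1) → ℝ))
  exact h.locallyCompactSpace

instance : SecondCountableTopology (G m) := by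
  have h : IsClosedEmbedding ((↑) : G m → Matrix (Fin (m+1)) (Fin (m+1)) ℝ) :=
    SpecialLinearGroup.isClosedEmbedding_val
  have : SecondCountableTopology (Matrix (Fin (m+1)) (Fin (m+1)) ℝ) :=
    inferInstanceAs (SecondCountableTopology (Fin (m+1) → Fin (m+1) → ℝ))
  exact h.isEmbedding.secondCountableTopology

instance : LocallyCompactSpace (X m) := inferInstanceAs (LocallyCompactSpace (G m ⧸ Gam m))
instance : SecondCountableTopology (X m) :=
  inferInstanceAs (SecondCountableTopology (G m ⧸ Gam m))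
instance : ContinuousSMul (G m) (X m) := inferInstanceAs (ContinuousSMul (G m) (G m ⧸ Gam m))
instance : MulAction.IsPretransitive (G m) (X m) :=
  inferInstanceAs (MulAction.IsPretransitive (G m) (G m ⧸ Gam m))

lemma cls_surj (x : X m) : ∃ g : G m, cls g = x := QuotientGroup.mk_surjective x

lemma smul_cls (h g : G m) : h • cls g = cls (h * g) := rfl

/-- The set of integer matrices. -/
def intMat (m : ℕ) : Set (Matrix (Fin (m+1)) (Fin (m+1)) ℝ) :=
  {M | ∀ i j, ∃ k : ℤ, M i j = k}

lemma intMat_closed : IsClosed (intMat m) := by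
  have : intMat m = ⋂ i, ⋂ j, {M : Matrix (Fin (m+1)) (Fin (m+1)) ℝ | M i j ∈ range ((↑) : ℤ → ℝ)} := by
    ext M
    simp only [intMat, mem_ofPred_eq, mem_iInter, mem_range]
    exact forall_congr' fun i => forall_congr' fun j => exists_congr fun k => eq_comm
  rw [this]
  refine isClosed_iInter fun i => isClosed_iInter fun j => ?_
  exact Int.isClosedEmbedding_coe_real.isClosed_range.preimage
    ((continuous_apply j).comp (continuous_apply i))

lemma intMat_mul {A B : Matrix (Fin (m+1)) (Fin (m+1)) ℝ} (hA : A ∈ intMat m) (hB : B ∈ intMat m) :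
    A * B ∈ intMat m := by
  intro i j
  choose a ha using hA
  choose b hb using hB
  refine ⟨∑ k, a i k * b k j, ?_⟩
  rw [Matrix.mul_apply]
  push_cast
  exact Finset.sum_congr rfl fun k _ => by rw [ha, hb]

lemma intMat_of_gam {γ : G m} (h : γ ∈ Gam m) : γ.1 ∈ intMat m := by
  obtain ⟨δ, rfl⟩ := h
  intro i j
  exact ⟨δ.1 i j, rfl⟩

/-- `g⁻¹ diag(t) g`. -/
noncomputable def conjm (t : Fin (m + 1) → ℝ) (g : G m) : Matrix (Fin (m+1)) (Fin (m+1)) ℝ :=
  (g⁻¹).1 * Matrix.diagonal t * g.1

lemma conjm_mul (t : Fin (m + 1) → ℝ) (g γ : G m) :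
    conjm t (g * γ) = (γ⁻¹).1 * conjm t g * γ.1 := by
  unfold conjm
  rw [_root_.mul_inv_rev]
  show ((γ⁻¹).1 * (g⁻¹).1) * _ * (g.1 * γ.1) = _
  simp only [Matrix.mul_assoc]

lemma conjm_int_iff (t : Fin (m + 1) → ℝ) {g h : G m} (e : cls g = cls h) :
    conjm t g ∈ intMat m ↔ conjm t h ∈ intMat m := by
  have h1 : ∀ g γ : G m, γ ∈ Gam m → conjm t g ∈ intMat m → conjm t (g * γ) ∈ intMat m := by
    intro g γ hγ hg
    rw [conjm_mul]
    exact intMat_mul (intMat_mul (intMat_of_gam (inv_mem hγ)) hg) (intMat_of_gam hγ)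
  have h2 : g⁻¹ * h ∈ Gam m := QuotientGroup.eq.mp e
  have h3 : h⁻¹ * g ∈ Gam m := QuotientGroup.eq.mp e.symm
  constructor
  · intro hg
    have := h1 g _ h2 hg
    rwa [mul_inv_cancel_left] at this
  · intro hg
    have := h1 h _ h3 hg
    rwa [mul_inv_cancel_left] at this

/-- Lattices stable under `diag(t)`. -/
def Zt (t : Fin (m + 1) → ℝ) : Set (X m) := {x | ∀ g : G m, cls g = x → conjm t g ∈ intMat m}

lemma mem_Zt (t : Fin (m + 1) → ℝ) (g : G m) : cls g ∈ Zt t ↔ conjm t g ∈ intMat m :=
  ⟨fun h => h g rfl, fun h _ e => (conjm_int_iff t e).mpr h⟩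

lemma Zt_closed (t : Fin (m + 1) → ℝ) : IsClosed (Zt t) := by
  have hq : IsQuotientMap (fun g : G m => (cls g : X m)) := QuotientGroup.isQuotientMap_mk _
  rw [← hq.isClosed_preimage]
  have : (fun g : G m => (cls g : X m)) ⁻¹' Zt t = conjm t ⁻¹' intMat m := by
    ext g; exact mem_Zt t g
  rw [this]
  refine intMat_closed.preimage ?_
  unfold conjm
  have h1 : Continuous fun g : G m => (g⁻¹).1 := continuous_subtype_val.comp continuous_inv
  have h2 : Continuous fun g : G m => g.1 := continuous_subtype_val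
  exact (h1.matrix_mul continuous_const).matrix_mul h2

lemma Zt_ne (t : Fin (m + 1) → ℝ) {a b : Fin (m + 1)} (hab : t a ≠ t b) : ∃ x : X m, x ∉ Zt t := by
  have hne : a ≠ b := fun h => hab (by rw [h])
  set s : ℝ := 1 / (2 * (t a - t b)) with hs
  let g : G m := ⟨Matrix.transvection a b s, Matrix.det_transvection_of_ne a b hne s⟩
  have hd : t a - t b ≠ 0 := sub_ne_zero.mpr hab
  refine ⟨cls g, fun h => ?_⟩
  rw [mem_Zt] at h
  obtain ⟨k, hk⟩ := h a b
  have key : g.1 * conjm t g = Matrix.diagonal t * g.1 := by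
    unfold conjm
    rw [← Matrix.mul_assoc, ← Matrix.mul_assoc]
    have : g.1 * (g⁻¹).1 = 1 := by
      have := congrArg Subtype.val (mul_inv_cancel g)
      exact this
    rw [this, Matrix.one_mul]
  -- compute the entry through the explicit inverse
  have hinv : (g⁻¹).1 = Matrix.transvection a b (-s) := by
    have h1 : Matrix.transvection a b (-s) * g.1 = 1 := by
      show Matrix.transvection a b (-s) * Matrix.transvection a b s = 1
      rw [Matrix.transvection_mul_transvection_same _ _ hne]; simp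
    have h2 : g.1 * (g⁻¹).1 = 1 := congrArg Subtype.val (mul_inv_cancel g)
    calc (g⁻¹).1 = (Matrix.transvection a b (-s) * g.1) * (g⁻¹).1 := by rw [h1, Matrix.one_mul]
      _ = Matrix.transvection a b (-s) * (g.1 * (g⁻¹).1) := Matrix.mul_assoc _ _ _
      _ = _ := by rw [h2, Matrix.mul_one]
  have hval : conjm t g a b = s * (t a - t b) := by
    unfold conjm
    rw [hinv]
    show (Matrix.transvection a b (-s) * Matrix.diagonal t * Matrix.transvection a b s) a b = _
    simp only [Matrix.transvection, Matrix.add_mul, Matrix.mul_add, Matrix.one_mul, Matrix.mul_one,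
      Matrix.add_apply]
    have e1 : (Matrix.diagonal t) a b = 0 := Matrix.diagonal_apply_ne _ hne
    have e2 : (Matrix.single a b (-s) * Matrix.diagonal t) a b = -s * t b := by
      rw [Matrix.mul_diagonal]; simp
    have e3 : (Matrix.diagonal t * Matrix.single a b s) a b = t a * s := by
      rw [Matrix.diagonal_mul]; simp
    have e4 : (Matrix.single a b (-s) * Matrix.diagonal t * Matrix.single a b s) a b = 0 := by
      rw [Matrix.mul_apply]
      refine Finset.sum_eq_zero fun k _ => ?_
      by_cases hk : k = a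
      · subst hk
        rw [Matrix.mul_diagonal]
        simp [Matrix.single, hne.symm]
      · simp [Matrix.single, Ne.symm hk]
    rw [e1, e2, e3, e4]; ring
  rw [hval] at hk
  have h2 : s * (t a - t b) = 1 / 2 := by rw [hs]; field_simp
  rw [h2] at hk
  have h3 : (1 : ℝ) = 2 * (k : ℝ) := by linarith
  have h4 : (1 : ℤ) = 2 * k := by exact_mod_cast h3
  omega

/-- A lattice stable under coordinatewise multiplication by `t` is in `Zt t`. -/
lemma mem_Zt_of_lattice (t : Fin (m + 1) → ℝ) {x : X m} {L : Set (Fin (m + 1) → ℝ)}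
    (hL : IsLattice x L) (h : ∀ v ∈ L, (fun j => t j * v j) ∈ L) : x ∈ Zt t := by
  obtain ⟨g, rfl, rfl⟩ := hL
  rw [mem_Zt]
  have h2 : (g⁻¹).1 * g.1 = 1 := congrArg Subtype.val (inv_mul_cancel g)
  have key : ∀ z : Fin (m + 1) → ℤ, ∃ z' : Fin (m + 1) → ℤ,
      (conjm t g).mulVec (fun i => (z i : ℝ)) = fun i => (z' i : ℝ) := by
    intro z
    obtain ⟨z', hz'⟩ := h _ ⟨z, rfl⟩
    refine ⟨z', ?_⟩
    have e : Matrix.mulVec (Matrix.diagonal t) (g.1.mulVec fun i => (z i : ℝ))
        = fun j => t j * (g.1.mulVec fun i => (z i : ℝ)) j := by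
      funext j; rw [Matrix.mulVec_diagonal]
    unfold conjm
    rw [← Matrix.mulVec_mulVec, ← Matrix.mulVec_mulVec, e]
    have hz'' : g.1.mulVec (fun i => (z' i : ℝ)) = fun j => t j * (g.1.mulVec fun i => (z i : ℝ)) j :=
      hz'
    rw [← hz'', Matrix.mulVec_mulVec, h2, Matrix.one_mulVec]
  intro i j
  obtain ⟨z', hz'⟩ := key (Pi.single j 1)
  refine ⟨z' i, ?_⟩
  have := congrFun hz' i
  rw [← this]
  have e : (fun i => (((Pi.single j 1 : Fin (m+1) → ℤ) i : ℤ) : ℝ)) = Pi.single j (1 : ℝ) := by
    funext k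
    by_cases hk : k = j
    · subst hk; simp
    · simp [hk]
  rw [e, Matrix.mulVec_single_one]
  rfl

lemma tor_smul_Zt (t : Fin (m + 1) → ℝ) {x : X m} (hx : x ∈ Zt t) (u : Fin m → ℝ) :
    act (tor u) x ∈ Zt t := by
  obtain ⟨g, rfl⟩ := cls_surj x
  rw [act_eq, smul_cls, mem_Zt]
  rw [mem_Zt] at hx
  have : conjm t (tor u * g) = conjm t g := by
    unfold conjm
    rw [_root_.mul_inv_rev]
    show ((g⁻¹).1 * ((tor u)⁻¹).1) * _ * ((tor u).1 * g.1) = _
    have hc : Matrix.diagonal t * (tor u).1 = (tor u).1 * Matrix.diagonal t := by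
      show Matrix.diagonal t * Matrix.diagonal _ = Matrix.diagonal _ * Matrix.diagonal t
      rw [Matrix.diagonal_mul_diagonal, Matrix.diagonal_mul_diagonal]
      congr 1; funext j; ring
    have h2 : ((tor u)⁻¹).1 * (tor u).1 = 1 := congrArg Subtype.val (inv_mul_cancel (tor u))
    calc ((g⁻¹).1 * ((tor u)⁻¹).1) * Matrix.diagonal t * ((tor u).1 * g.1)
        = (g⁻¹).1 * (((tor u)⁻¹).1 * (Matrix.diagonal t * (tor u).1)) * g.1 := by
          simp only [Matrix.mul_assoc]
      _ = (g⁻¹).1 * ((((tor u)⁻¹).1 * (tor u).1) * Matrix.diagonal t) * g.1 := by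
          rw [hc]; simp only [Matrix.mul_assoc]
      _ = _ := by rw [h2, Matrix.one_mul]
  rw [this]
  exact hx

lemma orb_sub_Zt (t : Fin (m + 1) → ℝ) {x : X m} (hx : x ∈ Zt t) : orb x ⊆ Zt t := by
  rintro _ ⟨u, rfl⟩
  exact tor_smul_Zt t hx u

lemma orbMeasure_compl (t : Fin (m + 1) → ℝ) {x : X m} (hx : x ∈ Zt t) :
    orbMeasure x (Zt t)ᶜ = 0 := by
  unfold orbMeasure
  split_ifs with h
  · by_cases hm : AEMeasurable (fun u : Fin m → ℝ => act (tor u) x) (volume.restrict h.choose)
    · rw [Measure.map_apply_of_aemeasurable hm (Zt_closed t).measurableSet.compl]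
      have : (fun u : Fin m → ℝ => act (tor u) x) ⁻¹' (Zt t)ᶜ = ∅ := by
        ext u
        simp only [mem_preimage, mem_compl_iff, mem_empty_iff_false, iff_false, not_not]
        exact tor_smul_Zt t hx u
      rw [this, measure_empty]
    · rw [Measure.map_of_not_aemeasurable hm]; simp
  · simp

lemma setMeasure_compl (t : Fin (m + 1) → ℝ) {P : Set (X m)} (hP : P ⊆ Zt t) :
    setMeasure P (Zt t)ᶜ = 0 := by
  unfold setMeasure
  split_ifs with h
  · exact orbMeasure_compl t (hP h.some_mem)
  · simp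

/-- The packet measure of an order containing an element with conjugate vector `t` does not
charge the complement of `Zt t`. -/
lemma packetMeasure_compl {K : Type*} [Field K] (σ : Fin (m + 1) ≃ (K →+* ℝ)) (O : Subring K)
    (y : K) (hy : y ∈ O) : packetMeasure σ O (Zt fun j => σ j y)ᶜ = 0 := by
  unfold packetMeasure
  rw [Measure.smul_apply]
  have : packetSum σ O (Zt fun j => σ j y)ᶜ = 0 := by
    unfold packetSum
    rw [Measure.sum_apply _ (Zt_closed _).measurableSet.compl]
    rw [ENNReal.tsum_eq_zero]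
    rintro ⟨P, x, I, w, c, ⟨hI, -⟩, -, -, hL, rfl⟩
    refine setMeasure_compl _ (orb_sub_Zt _ (mem_Zt_of_lattice _ hL ?_))
    rintro _ ⟨a, ha, rfl⟩
    refine ⟨y * a, (hI y).mp hy a ha, ?_⟩
    funext j
    rw [map_mul]; ring
  rw [this, smul_zero]

/-- An open set has positive mass for an invariant probability measure, tested by a function. -/
lemma exists_test {U : Set (X m)} (hU : IsOpen U) (hne : U.Nonempty) {μ : Measure (X m)}
    (hμ : IsInvariantProbability μ) :
    ∃ f : X m → ℝ, Continuous f ∧ HasCompactSupport f ∧ (∀ x, x ∉ U → f x = 0) ∧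
      0 < ∫ x, f x ∂μ := by
  obtain ⟨hp', hinv⟩ := hμ
  have hp : IsProbabilityMeasure μ := ⟨hp'⟩
  obtain ⟨x₀, hx₀⟩ := hne
  obtain ⟨f, h1, h0, hc, h01⟩ := exists_continuous_one_zero_of_isCompact (isCompact_singleton (x := x₀))
    hU.isClosed_compl (by simpa using hx₀)
  refine ⟨f, f.continuous, hc, fun x hx => h0 hx, ?_⟩
  have hfx : f x₀ = 1 := h1 (mem_singleton x₀)
  -- positivity on open sets
  have hpos : ∀ W : Set (X m), IsOpen W → W.Nonempty → 0 < μ W := by
    intro W hW hWne
    by_contra hz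
    have hz0 : μ W = 0 := by simpa using hz
    have htr : ∀ g : G m, μ ((fun x => g • x) ⁻¹' W) = 0 := by
      intro g
      have hm : Measurable fun x : X m => g • x := (continuous_const_smul g).measurable
      have hi : μ.map (fun x => g • x) = μ := hinv g
      rw [← Measure.map_apply hm hW.measurableSet, hi, hz0]
    obtain ⟨w, hw⟩ := hWne
    have hcov : (univ : Set (X m)) ⊆ ⋃ g : G m, (fun x => g • x) ⁻¹' W := by
      intro x _
      obtain ⟨g, hg⟩ := MulAction.exists_smul_eq (G m) x w
      exact mem_iUnion.mpr ⟨g, by simpa [hg] using hw⟩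
    obtain ⟨T, hTc, hT⟩ := TopologicalSpace.isOpen_iUnion_countable
      (fun g : G m => (fun x : X m => g • x) ⁻¹' W) (fun g => hW.preimage (continuous_const_smul g))
    have : μ univ = 0 := by
      refine measure_mono_null hcov ?_
      rw [← hT]
      exact (measure_biUnion_null_iff hTc).mpr fun g _ => htr g
    rw [measure_univ] at this
    exact one_ne_zero this
  have hint : Integrable f μ := f.continuous.integrable_of_hasCompactSupport hc
  rw [integral_pos_iff_support_of_nonneg (fun x => (h01 x).1) hint]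
  have hopen : IsOpen (Function.support f) := by
    have : Function.support f = f ⁻¹' {0}ᶜ := rfl
    rw [this]
    exact isOpen_compl_singleton.preimage f.continuous
  exact hpos _ hopen ⟨x₀, by simp [hfx]⟩

/-- No subsequence of measures that do not charge a fixed nonempty open set can converge. -/
lemma not_converges {U : Set (X m)} (hU : IsOpen U) (hne : U.Nonempty) {μ : Measure (X m)}
    (hμ : IsInvariantProbability μ) {μs : ℕ → Measure (X m)}
    (h : ∃ᶠ i in Filter.atTop, μs i U = 0) : ¬ ConvergesTo μs μ := by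
  intro hconv
  obtain ⟨f, hf, hc, hz, hpos⟩ := exists_test hU hne hμ
  have ht := hconv f hf hc
  have hz' : ∃ᶠ i in Filter.atTop, ∫ x, f x ∂(μs i) = 0 := by
    refine h.mono fun i hi => ?_
    apply integral_eq_zero_of_ae
    have : ∀ᵐ x ∂(μs i), x ∉ U := by
      rw [ae_iff]; simpa using hi
    exact this.mono fun x hx => hz x hx
  have := ht.eventually (lt_mem_nhds hpos)
  obtain ⟨i, h1, h2⟩ := (hz'.and_eventually this).exists
  rw [h1] at h2
  exact lt_irrefl _ h2

end Vale.Agent.P007
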