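import Vale.Agent.P007.Defs

/-! The orders `(O_K ∩ F) + k O_K`. -/

namespace Vale.Agent.P007

open Module Set

variable {K : Type*} [Field K] [NumberField K]

/-- The ring of integers as a subring. -/
def OK (K : Type*) [Field K] : Subring K := (integralClosure ℤ K).toSubring

omit [NumberField K] in
lemma mem_OK {x : K} : x ∈ OK K ↔ IsIntegral ℤ x := Iff.rfl

/-- The order `(O_K ∩ F) + k O_K`. -/
def ord (F : Subfield K) (k : ℕ) : Subring K where
  carrier := {x | ∃ r ∈ OK K, r ∈ F ∧ ∃ z ∈ OK K, x = r + k * z}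
  mul_mem' := by
    rintro _ _ ⟨r, hr, hrF, z, hz, rfl⟩ ⟨r', hr', hrF', z', hz', rfl⟩
    refine ⟨r * r', mul_mem hr hr', mul_mem hrF hrF', r * z' + z * r' + k * (z * z'), ?_, by ring⟩
    exact add_mem (add_mem (mul_mem hr hz') (mul_mem hz hr'))
      (mul_mem (natCast_mem _ k) (mul_mem hz hz'))
  one_mem' := ⟨1, one_mem _, one_mem _, 0, zero_mem _, by simp⟩
  add_mem' := by
    rintro _ _ ⟨r, hr, hrF, z, hz, rfl⟩ ⟨r', hr', hrF', z', hz', rfl⟩
    exact ⟨r + r', add_mem hr hr', add_mem hrF hrF', z + z', add_mem hz hz', by ring⟩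
  zero_mem' := ⟨0, zero_mem _, zero_mem _, 0, zero_mem _, by simp⟩
  neg_mem' := by
    rintro _ ⟨r, hr, hrF, z, hz, rfl⟩
    exact ⟨-r, neg_mem hr, neg_mem hrF, -z, neg_mem hz, by ring⟩

omit [NumberField K] in
lemma ord_le (F : Subfield K) (k : ℕ) : ord F k ≤ OK K := by
  rintro _ ⟨r, hr, -, z, hz, rfl⟩
  exact add_mem hr (mul_mem (natCast_mem _ k) hz)

omit [NumberField K] in
lemma mul_mem_ord (F : Subfield K) (k : ℕ) {z : K} (hz : z ∈ OK K) : (k : K) * z ∈ ord F k :=
  ⟨0, zero_mem _, zero_mem _, z, hz, by simp⟩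

omit [NumberField K] in
lemma mem_ord_of (F : Subfield K) (k : ℕ) {r : K} (hr : r ∈ OK K) (hF : r ∈ F) : r ∈ ord F k :=
  ⟨r, hr, hF, 0, zero_mem _, by simp⟩

lemma exists_int_mul (x : K) : ∃ N : ℤ, N ≠ 0 ∧ (N : K) * x ∈ OK K := by
  have hx : IsAlgebraic ℤ x := by
    have : IsAlgebraic ℚ x := Algebra.IsAlgebraic.isAlgebraic x
    exact (IsFractionRing.isAlgebraic_iff ℤ ℚ K).mpr this
  obtain ⟨y, hy, h⟩ := hx.exists_integral_multiple
  refine ⟨y, hy, ?_⟩
  rw [mem_OK]
  rwa [← zsmul_eq_mul]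

lemma ord_isOrder (F : Subfield K) {k : ℕ} (hk : k ≠ 0) : IsOrder (ord F k) := by
  refine ⟨fun x hx => ord_le F k hx, fun x => ?_⟩
  obtain ⟨N, hN, hx⟩ := exists_int_mul x
  refine ⟨k * N, mul_ne_zero (by exact_mod_cast hk) hN, ?_⟩
  have := mul_mem_ord F k hx
  push_cast
  rwa [mul_assoc]

/-- A functional vanishing on `F`, integral on the ring of integers and nonzero on it. -/
lemma exists_functional (F : Subfield K) (hF : F ≠ ⊤) :
    ∃ l : K →ₗ[ℚ] ℚ, (∀ x ∈ F, l x = 0) ∧ (∀ x ∈ OK K, ∃ a : ℤ, l x = a) ∧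
      ∃ z ∈ OK K, l z ≠ 0 := by
  classical
  let Fs : Submodule ℚ K :=
    { carrier := F
      add_mem' := fun ha hb => add_mem ha hb
      zero_mem' := zero_mem F
      smul_mem' := by
        intro q x hx
        rw [Algebra.smul_def]
        refine mul_mem ?_ hx
        have : algebraMap ℚ K q = (q : K) := by simp
        rw [this]
        exact SubfieldClass.ratCast_mem F q }
  have hFs : Fs < ⊤ := by
    rw [lt_top_iff_ne_top]
    intro h
    apply hF
    rw [eq_top_iff]
    intro x _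
    have : x ∈ Fs := by rw [h]; trivial
    exact this
  obtain ⟨f, hf0, hfk⟩ := Submodule.exists_le_ker_of_lt_top Fs hFs
  let b := NumberField.integralBasis K
  set N : ℕ := ∏ i, (f (b i)).den with hN
  have hN0 : N ≠ 0 := Finset.prod_ne_zero_iff.mpr fun i _ => (f (b i)).den_nz
  have hNi : ∀ i, ∃ a : ℤ, (N : ℚ) * f (b i) = a := by
    intro i
    obtain ⟨c, hc⟩ : (f (b i)).den ∣ N := Finset.dvd_prod_of_mem _ (Finset.mem_univ i)
    refine ⟨c * (f (b i)).num, ?_⟩
    rw [hc]
    push_cast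
    have := Rat.mul_den_eq_num (f (b i))
    calc ((f (b i)).den : ℚ) * c * f (b i) = c * (f (b i) * (f (b i)).den) := by ring
      _ = _ := by rw [this]
  have hint : ∀ x ∈ OK K, ∃ a : ℤ, (N : ℚ) * f x = a := by
    intro x hx
    have hx' : x ∈ Submodule.span ℤ (range b) := by
      rw [NumberField.mem_span_integralBasis]
      exact ⟨⟨x, hx⟩, rfl⟩
    clear hx
    induction hx' using Submodule.span_induction with
    | mem y hy => obtain ⟨i, rfl⟩ := hy; exact hNi i
    | zero => exact ⟨0, by simp⟩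
    | add y z _ _ h1 h2 =>
      obtain ⟨a, ha⟩ := h1
      obtain ⟨a', ha'⟩ := h2
      exact ⟨a + a', by rw [map_add, mul_add, ha, ha']; push_cast; ring⟩
    | smul c y _ h =>
      obtain ⟨a, ha⟩ := h
      refine ⟨c * a, ?_⟩
      have : c • y = (c : ℚ) • y := by rw [zsmul_eq_mul, Algebra.smul_def]; simp
      rw [this, map_smul, smul_eq_mul]
      push_cast
      rw [← ha]; ring
  refine ⟨(N : ℚ) • f, ?_, ?_, ?_⟩
  · intro x hx
    have : f x = 0 := hfk (show x ∈ Fs from hx)
    simp [this]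
  · intro x hx
    simpa using hint x hx
  · obtain ⟨x, hx⟩ : ∃ x, f x ≠ 0 := by
      by_contra h
      push Not at h
      exact hf0 (LinearMap.ext h)
    obtain ⟨M, hM, hMx⟩ := exists_int_mul x
    refine ⟨_, hMx, ?_⟩
    have : (M : K) * x = (M : ℚ) • x := by rw [Algebra.smul_def]; simp
    rw [this]
    simp [hM, hN0, hx]

lemma relIndex_ne_zero (F : Subfield K) {k : ℕ} (hk : k ≠ 0) :
    (ord F k).toAddSubgroup.relIndex (OK K).toAddSubgroup ≠ 0 := by
  set H := ((ord F k).toAddSubgroup).addSubgroupOf (OK K).toAddSubgroup with hH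
  show H.index ≠ 0
  have hfin : Finite ((NumberField.RingOfIntegers K) ⧸ Ideal.span {(k : NumberField.RingOfIntegers K)}) := by
    apply Ideal.finiteQuotientOfFreeOfNeBot
    rw [Ne, Ideal.span_singleton_eq_bot]
    exact_mod_cast hk
  let φ : NumberField.RingOfIntegers K →+ (OK K).toAddSubgroup ⧸ H :=
    (QuotientAddGroup.mk' H).comp
      { toFun := fun x => ⟨x.1, x.2⟩
        map_zero' := rfl
        map_add' := fun _ _ => rfl }
  have hsurj : Function.Surjective φ := by
    intro q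
    obtain ⟨⟨x, hx⟩, rfl⟩ := QuotientAddGroup.mk_surjective q
    exact ⟨⟨x, hx⟩, rfl⟩
  have hker : ∀ x ∈ (Ideal.span {(k : NumberField.RingOfIntegers K)}).toAddSubgroup, φ x = 0 := by
    intro x hx
    obtain ⟨y, rfl⟩ := Ideal.mem_span_singleton'.mp hx
    show (QuotientAddGroup.mk _ : (OK K).toAddSubgroup ⧸ H) = 0
    rw [QuotientAddGroup.eq_zero_iff, hH, AddSubgroup.mem_addSubgroupOf]
    show ((y * (k : NumberField.RingOfIntegers K) : NumberField.RingOfIntegers K) : K) ∈ ord F k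
    have : ((y * (k : NumberField.RingOfIntegers K) : NumberField.RingOfIntegers K) : K)
        = (k : K) * (y : K) := by push_cast; ring
    rw [this]
    exact mul_mem_ord F k y.2
  have hfin' : Finite ((NumberField.RingOfIntegers K) ⧸
      (Ideal.span {(k : NumberField.RingOfIntegers K)}).toAddSubgroup) := hfin
  have hfin2 : Finite ((OK K).toAddSubgroup ⧸ H) := by
    refine Finite.of_surjective
      (QuotientAddGroup.lift (Ideal.span {(k : NumberField.RingOfIntegers K)}).toAddSubgroup φ hker) ?_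
    intro q
    obtain ⟨x, rfl⟩ := hsurj q
    exact ⟨QuotientAddGroup.mk x, rfl⟩
  exact AddSubgroup.index_ne_zero_of_finite

/-- The discriminants of the orders grow at least linearly. -/
lemma absDisc_bound (F : Subfield K) (hF : F ≠ ⊤) :
    ∃ a : ℕ, ∀ k : ℕ, k ≠ 0 → k ≤ absDisc (ord F k) * a := by
  obtain ⟨l, hl0, hli, z, hz, hlz⟩ := exists_functional F hF
  obtain ⟨a, ha⟩ := hli z hz
  refine ⟨a.natAbs, fun k hk => ?_⟩
  set j := (ord F k).toAddSubgroup.relIndex (OK K).toAddSubgroup with hj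
  have hj0 : j ≠ 0 := relIndex_ne_zero F hk
  -- the multiple `j z` lies in the order
  have hmem : (j : K) * z ∈ ord F k := by
    have := AddSubgroup.nsmul_index_mem (H := ((ord F k).toAddSubgroup).addSubgroupOf
      (OK K).toAddSubgroup) (⟨z, hz⟩ : (OK K).toAddSubgroup)
    rw [AddSubgroup.mem_addSubgroupOf] at this
    have e : (j : K) * z = j • z := by rw [nsmul_eq_mul]
    rw [e]
    exact this
  obtain ⟨r, hr, hrF, w, hw, e⟩ := hmem
  obtain ⟨c, hc⟩ := hli w hw
  have h1 : (j : ℚ) * a = k * c := by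
    have h2 := congrArg l e
    have e1 : (j : K) * z = (j : ℚ) • z := by rw [Algebra.smul_def]; simp
    have e2 : (k : K) * w = (k : ℚ) • w := by rw [Algebra.smul_def]; simp
    rw [e1, e2, map_add, map_smul, map_smul, hl0 r hrF, ha, hc] at h2
    simpa using h2
  have h3 : (j : ℤ) * a = k * c := by exact_mod_cast h1
  have ha0 : a ≠ 0 := by
    rintro rfl
    exact hlz (by rw [ha]; simp)
  have h4 : k ∣ j * a.natAbs := by
    have : (k : ℤ) ∣ j * a := ⟨c, h3⟩
    have := Int.natAbs_dvd_natAbs.mpr this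
    rwa [Int.natAbs_natCast, Int.natAbs_mul, Int.natAbs_natCast] at this
  have h5 : k ≤ j * a.natAbs :=
    Nat.le_of_dvd (Nat.mul_pos (Nat.pos_of_ne_zero hj0) (Int.natAbs_pos.mpr ha0)) h4
  have h6 : j ≤ absDisc (ord F k) := by
    unfold absDisc
    have h7 : 1 ≤ (NumberField.discr K).natAbs := Int.natAbs_pos.mpr (NumberField.discr_ne_zero K)
    have h8 : j ≤ j ^ 2 := Nat.le_self_pow two_ne_zero j
    calc j ≤ 1 * j ^ 2 := by rw [one_mul]; exact h8
      _ ≤ _ := Nat.mul_le_mul_right _ h7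
  exact h5.trans (Nat.mul_le_mul_right _ h6)

lemma absDisc_tendsto (F : Subfield K) (hF : F ≠ ⊤) :
    Filter.Tendsto (fun i : ℕ => absDisc (ord F (i + 1))) Filter.atTop Filter.atTop := by
  obtain ⟨a, ha⟩ := absDisc_bound F hF
  rw [Filter.tendsto_atTop]
  intro b
  filter_upwards [Filter.eventually_ge_atTop (b * a)] with i hi
  have h := ha (i + 1) (Nat.succ_ne_zero i)
  by_contra hlt
  push Not at hlt
  have : absDisc (ord F (i + 1)) * a ≤ b * a := Nat.mul_le_mul_right _ hlt.le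
  omega

end Vale.Agent.P007
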