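import Vale.Agent.P007.Necessary
import Vale.Agent.P007.Field
import Vale.Agent.P007.Orders

/-! The counterexample sequences in composite degree. -/

namespace Vale.Agent.P007

open Module Set MeasureTheory Filter

lemma exists_sigma {m : ℕ} (K : Type) [Field K] [NumberField K] [NumberField.IsTotallyReal K]
    (h : finrank ℚ K = m + 1) : Nonempty (Fin (m + 1) ≃ (K →+* ℝ)) := by
  have hbij : Function.Bijective fun τ : K →+* ℝ => (Complex.ofRealHom.comp τ : K →+* ℂ) := by
    constructor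
    · intro τ τ' e
      ext x
      have := RingHom.congr_fun e x
      simpa using this
    · intro φ
      have hφ : NumberField.ComplexEmbedding.IsReal φ :=
        NumberField.IsTotallyReal.complexEmbedding_isReal φ
      refine ⟨hφ.embedding, ?_⟩
      ext x
      exact hφ.coe_embedding_apply x
  have hc : Fintype.card (K →+* ℂ) = m + 1 := by rw [NumberField.Embeddings.card, h]
  exact ⟨(Fintype.equivFinOfCardEq hc).symm.trans (Equiv.ofBijective _ hbij).symm⟩

theorem composite (m : ℕ) (hm : 3 ≤ m) (hn : ¬ (m + 1).Prime) :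
    ∃ (K : Type) (_ : Field K) (_ : NumberField K) (σ : Fin (m + 1) ≃ (K →+* ℝ))
      (O : ℕ → Subring K), finrank ℚ K = m + 1 ∧ (∀ i, IsOrder (O i)) ∧
      Tendsto (fun i => absDisc (O i)) atTop atTop ∧
      (∃ U : Set (X m), IsOpen U ∧ U.Nonempty ∧ ∀ i, packetMeasure σ (O i) U = 0) ∧
      ∀ μ : Measure (X m), IsInvariantProbability μ → ∀ s : ℕ → ℕ, StrictMono s →
        ¬ ConvergesTo (fun i => packetMeasure σ (O (s i))) μ := by
  obtain ⟨d, hd, hd2, hdn⟩ := Nat.exists_dvd_of_not_prime2 (show 2 ≤ m + 1 by omega) hn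
  obtain ⟨e, he⟩ := hd
  have he2 : 2 ≤ e := by
    by_contra h
    have : e = 0 ∨ e = 1 := by omega
    rcases this with rfl | rfl
    · omega
    · omega
  obtain ⟨K, i1, i2, hdeg, hreal, F, hF, y, hyF, hyq⟩ := exists_field d e hd2 he2
  rw [← he] at hdeg
  obtain ⟨σ⟩ := exists_sigma K hdeg
  -- an integral irrational element of `F`
  obtain ⟨N, hN, hNy⟩ := exists_int_mul y
  have hyF' : (N : K) * y ∈ F := mul_mem (intCast_mem F N) hyF
  have hirr : (N : K) * y ∉ range (algebraMap ℚ K) := by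
    rintro ⟨q, hq⟩
    apply hyq (q / N)
    have hN' : (N : K) ≠ 0 := by exact_mod_cast hN
    have h1 : algebraMap ℚ K q = (q : K) := by simp
    rw [h1] at hq
    push_cast
    rw [hq]
    field_simp
  obtain ⟨a, b, hab⟩ := exists_conj_ne σ hdeg _ hirr
  obtain ⟨x, hx⟩ := Zt_ne (fun j => σ j ((N : K) * y)) hab
  have hU : ∀ i : ℕ, packetMeasure σ (ord F (i + 1)) (Zt fun j => σ j ((N : K) * y))ᶜ = 0 :=
    fun i => packetMeasure_compl σ _ _ (mem_ord_of F (i + 1) hNy hyF')
  refine ⟨K, i1, i2, σ, fun i => ord F (i + 1), hdeg, fun i => ord_isOrder F (Nat.succ_ne_zero i),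
    absDisc_tendsto F hF, ⟨_, (Zt_closed _).isOpen_compl, ⟨x, hx⟩, hU⟩, ?_⟩
  intro μ hμ s _
  exact not_converges (Zt_closed _).isOpen_compl ⟨x, hx⟩ hμ
    (Frequently.of_forall fun i => hU (s i))

end Vale.Agent.P007
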