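import Vale.Agent.P007.Geom

/-! Orders containing a root of a fixed polynomial obstruct equidistribution. -/

namespace Vale.Agent.P007

open MeasureTheory Set Polynomial Module

variable {m : ℕ}

/-- An irrational element has two different real conjugates. -/
lemma exists_conj_ne {K : Type*} [Field K] [NumberField K] (σ : Fin (m + 1) ≃ (K →+* ℝ))
    (hdeg : finrank ℚ K = m + 1) (y : K) (hy : y ∉ range (algebraMap ℚ K)) :
    ∃ a b, σ a y ≠ σ b y := by
  by_contra hcon
  push Not at hcon
  have hsurj : Function.Surjective fun j : Fin (m + 1) => (Complex.ofRealHom.comp (σ j) : K →+* ℂ) := by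
    have hinj : Function.Injective
        fun j : Fin (m + 1) => (Complex.ofRealHom.comp (σ j) : K →+* ℂ) := by
      intro i j hij
      apply σ.injective
      ext x
      have := RingHom.congr_fun hij x
      simpa using this
    have hcard : Fintype.card (Fin (m + 1)) = Fintype.card (K →+* ℂ) := by
      rw [Fintype.card_fin, NumberField.Embeddings.card, hdeg]
    exact ((Fintype.bijective_iff_injective_and_card _).mpr ⟨hinj, hcard⟩).2
  have hconst : ∀ φ : K →+* ℂ, φ y = (σ 0 y : ℂ) := by
    intro φ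
    obtain ⟨j, rfl⟩ := hsurj φ
    show ((σ j y : ℝ) : ℂ) = _
    rw [hcon j 0]
  have hroot : (minpoly ℚ y).rootSet ℂ ⊆ {((σ 0 y : ℝ) : ℂ)} := by
    rw [← NumberField.Embeddings.range_eval_eq_rootSet_minpoly K ℂ y]
    rintro _ ⟨φ, rfl⟩
    exact hconst φ
  have hint : IsIntegral ℚ y := Algebra.IsIntegral.isIntegral y
  have hsep : (minpoly ℚ y).Separable := (minpoly.irreducible hint).separable
  have hcard := card_rootSet_eq_natDegree (K := ℂ) hsep (IsAlgClosed.splits _)
  have h1 : (minpoly ℚ y).natDegree ≤ 1 := by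
    rw [← hcard, Fintype.card_le_one_iff_subsingleton]
    constructor
    rintro ⟨a, ha⟩ ⟨b, hb⟩
    have := hroot ha
    have := hroot hb
    simp_all
  have h2 := minpoly.natDegree_pos hint
  have h3 : (minpoly ℚ y).natDegree = 1 := le_antisymm h1 h2
  rw [minpoly.natDegree_eq_one_iff] at h3
  exact hy h3

lemma not_rational_of_root {K : Type*} [Field K] [NumberField K] {f : ℚ[X]} (hf : Irreducible f)
    (h2 : 2 ≤ f.natDegree) {y : K} (hy : aeval y f = 0) : y ∉ range (algebraMap ℚ K) := by
  rintro ⟨q, rfl⟩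
  rw [aeval_algebraMap_apply, map_eq_zero] at hy
  have h1 := degree_eq_one_of_irreducible_of_root hf (x := q) (by simpa [IsRoot] using hy)
  have h3 : f.natDegree = 1 := natDegree_eq_of_degree_eq_some h1
  omega

/-- The general obstruction: if the packet measures converge to the invariant probability
measure, then a fixed irreducible polynomial of degree at least two has a root in only finitely
many of the orders. -/
theorem finite_of_converges (K : ℕ → Type) [∀ i, Field (K i)] [∀ i, NumberField (K i)]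
    (σ : ∀ i, Fin (m + 1) ≃ (K i →+* ℝ)) (hdeg : ∀ i, finrank ℚ (K i) = m + 1)
    (O : ∀ i, Subring (K i)) {μ : Measure (X m)} (hμ : IsInvariantProbability μ)
    (hconv : ConvergesTo (fun i => packetMeasure (σ i) (O i)) μ)
    {f : ℚ[X]} (hf : Irreducible f) (h2 : 2 ≤ f.natDegree) :
    {i | ∃ y ∈ O i, aeval y f = 0}.Finite := by
  classical
  have hf0 : f ≠ 0 := hf.ne_zero
  set R : Finset ℝ := (f.map (algebraMap ℚ ℝ)).roots.toFinset with hR
  set T : Finset (Fin (m + 1) → ℝ) := Fintype.piFinset fun _ => R with hT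
  have hsub : {i | ∃ y ∈ O i, aeval y f = 0}
      ⊆ ⋃ t ∈ T, {i | ∃ y ∈ O i, aeval y f = 0 ∧ (fun j => σ i j y) = t} := by
    rintro i ⟨y, hyO, hy⟩
    simp only [mem_iUnion]
    refine ⟨fun j => σ i j y, ?_, y, hyO, hy, rfl⟩
    rw [hT, Fintype.mem_piFinset]
    intro j
    rw [hR, Multiset.mem_toFinset, mem_roots (map_ne_zero hf0), IsRoot, eval_map, ← aeval_def]
    have : aeval (σ i j y) f = σ i j (aeval y f) := by
      have := (aeval_algHom_apply (σ i j).toRatAlgHom y f)
      simpa using this
    rw [this, hy, map_zero]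
  refine Finite.subset (Finset.finite_toSet T |>.biUnion fun t _ => ?_) hsub
  by_contra hinf
  have hfreq : ∃ᶠ i in Filter.atTop, i ∈ {i | ∃ y ∈ O i, aeval y f = 0 ∧ (fun j => σ i j y) = t} :=
    Nat.frequently_atTop_iff_infinite.mpr hinf
  obtain ⟨i₀, y₀, hy₀, hr₀, ht₀⟩ := hfreq.exists
  obtain ⟨a, b, hab⟩ := exists_conj_ne (σ i₀) (hdeg i₀) y₀ (not_rational_of_root hf h2 hr₀)
  have hab' : t a ≠ t b := by rw [← ht₀]; exact hab
  obtain ⟨x, hx⟩ := Zt_ne t hab'
  refine not_converges (Zt_closed t).isOpen_compl ⟨x, hx⟩ hμ (hfreq.mono ?_) hconv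
  rintro i ⟨y, hyO, -, ht⟩
  have := packetMeasure_compl (σ i) (O i) y hyO
  rwa [ht] at this

end Vale.Agent.P007
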